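import Mathlib

namespace Vale.Agent.P186

/-- A group is word-hyperbolic if it has a finite generating set `S` and a constant `δ` such that
in the Cayley graph every geodesic triangle is `δ`-thin: each vertex on a side is within distance
`δ` of a vertex on one of the two other sides. -/
def IsWordHyperbolic (G : Type) [Group G] : Prop :=
  ∃ S : Finset G, Subgroup.closure (S : Set G) = ⊤ ∧ ∃ δ : ℕ,
    ∀ (x y z : G) (p : (SimpleGraph.mulCayley (S : Set G)).Walk x y)
      (q : (SimpleGraph.mulCayley (S : Set G)).Walk y z)
      (r : (SimpleGraph.mulCayley (S : Set G)).Walk z x),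
      p.length = (SimpleGraph.mulCayley (S : Set G)).dist x y →
      q.length = (SimpleGraph.mulCayley (S : Set G)).dist y z →
      r.length = (SimpleGraph.mulCayley (S : Set G)).dist z x →
      ∀ v ∈ p.support, ∃ w, (w ∈ q.support ∨ w ∈ r.support) ∧
        (SimpleGraph.mulCayley (S : Set G)).dist v w ≤ δ

end Vale.Agent.P186
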