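import Vale.Agent.P186.Defs

namespace Vale.Agent.P186

open SimpleGraph

section Graph

variable {A B : Type} {G : SimpleGraph A} {H : SimpleGraph B} {q : A → B}

theorem ext_lift (hq : Function.Surjective q) (h1 : ∀ a b, H.Adj (q a) (q b) → G.Adj a b)
    (h2 : ∀ a b, q a = q b → a = b ∨ G.Adj a b) {u v : B} (W : H.Walk u v) :
    ∀ a b, q a = u → q b = v → ∃ W' : G.Walk a b, W'.length ≤ max 1 W.length := by
  induction W with
  | nil =>
    intro a b ha hb
    rcases h2 a b (ha.trans hb.symm) with rfl | h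
    · exact ⟨Walk.nil, by simp⟩
    · exact ⟨Walk.cons h Walk.nil, by simp⟩
  | @cons u u' v h W ih =>
    intro a b ha hb
    cases W with
    | nil => exact ⟨Walk.cons (h1 a b (by rw [ha, hb]; exact h)) Walk.nil, by simp⟩
    | cons h' W =>
      obtain ⟨a', ha'⟩ := hq u'
      obtain ⟨W', hW'⟩ := ih a' b ha' hb
      refine ⟨Walk.cons (h1 a a' (by rw [ha, ha']; exact h)) W', ?_⟩
      simp only [Walk.length_cons] at hW' ⊢
      omega

theorem ext_proj (h3 : ∀ a b, G.Adj a b → q a = q b ∨ H.Adj (q a) (q b)) {a b : A}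
    (W : G.Walk a b) : ∃ W' : H.Walk (q a) (q b), W'.length ≤ W.length ∧
      (∀ v ∈ W.support, q v ∈ W'.support) ∧ ∀ w ∈ W'.support, ∃ v ∈ W.support, q v = w := by
  induction W with
  | nil => exact ⟨Walk.nil, le_rfl, by simp, by simp⟩
  | @cons a a' b h W ih =>
    obtain ⟨W', i1, i2, i3⟩ := ih
    rcases h3 a a' h with e | e
    · refine ⟨W'.copy e.symm rfl, by simp; omega, ?_, ?_⟩
      · intro v hv
        simp only [Walk.support_cons, List.mem_cons, Walk.support_copy] at hv ⊢
        rcases hv with rfl | hv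
        · rw [e]; exact W'.start_mem_support
        · exact i2 v hv
      · intro w hw
        obtain ⟨v, hv, rfl⟩ := i3 w (by simpa using hw)
        exact ⟨v, by simp [hv], rfl⟩
    · refine ⟨Walk.cons e W', by simp; omega, ?_, ?_⟩
      · intro v hv
        simp only [Walk.support_cons, List.mem_cons] at hv ⊢
        rcases hv with rfl | hv
        · exact Or.inl rfl
        · exact Or.inr (i2 v hv)
      · intro w hw
        simp only [Walk.support_cons, List.mem_cons] at hw
        rcases hw with rfl | hw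
        · exact ⟨a, by simp, rfl⟩
        · obtain ⟨v, hv, rfl⟩ := i3 w hw
          exact ⟨v, by simp [hv], rfl⟩

theorem ext_dist (hc : H.Connected) (hq : Function.Surjective q)
    (h1 : ∀ a b, H.Adj (q a) (q b) → G.Adj a b)
    (h2 : ∀ a b, q a = q b → a = b ∨ G.Adj a b) (a b : A) :
    G.dist a b ≤ max 1 (H.dist (q a) (q b)) := by
  obtain ⟨W, hW⟩ := hc.exists_walk_length_eq_dist (q a) (q b)
  obtain ⟨W', hW'⟩ := ext_lift hq h1 h2 W a b rfl rfl
  rw [← hW]
  exact (dist_le W').trans hW'

theorem ext_geo (hc : H.Connected) (hq : Function.Surjective q)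
    (h1 : ∀ a b, H.Adj (q a) (q b) → G.Adj a b)
    (h2 : ∀ a b, q a = q b → a = b ∨ G.Adj a b)
    (h3 : ∀ a b, G.Adj a b → q a = q b ∨ H.Adj (q a) (q b)) {a b : A} (W : G.Walk a b)
    (hW : W.length = G.dist a b) :
    ∃ W' : H.Walk (q a) (q b), W'.length = H.dist (q a) (q b) ∧
      (∀ v ∈ W.support, q v ∈ W'.support) ∧ ∀ w ∈ W'.support, ∃ v ∈ W.support, q v = w := by
  obtain ⟨W', i1, i2, i3⟩ := ext_proj h3 W
  refine ⟨W', ?_, i2, i3⟩
  have d1 := ext_dist hc hq h1 h2 a b
  have d2 := dist_le W'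
  rcases Nat.eq_zero_or_pos (H.dist (q a) (q b)) with h0 | h0
  · have e := hc.dist_eq_zero_iff.1 h0
    by_contra hne
    have : W'.length = 1 := by omega
    exact (Walk.adj_of_length_eq_one this).ne e
  · omega

end Graph

theorem ext_connected {H : Type} [Group H] {S : Set H} (hS : Subgroup.closure S = ⊤) :
    (mulCayley S).Connected := by
  have key : ∀ a g : H, (mulCayley S).Reachable a (a * g) := by
    intro a g
    have hg : g ∈ Subgroup.closure S := by rw [hS]; trivial
    induction hg using Subgroup.closure_induction_right with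
    | one => rw [mul_one]
    | mul_right x _ y hy ih =>
      refine ih.trans ?_
      by_cases h : a * x = a * (x * y)
      · rw [← h]
      · exact Adj.reachable ((mulCayley_adj' S _ _).2 ⟨h, y, hy, Or.inl (mul_assoc _ _ _)⟩)
    | mul_inv_cancel x _ y hy ih =>
      refine ih.trans ?_
      by_cases h : a * x = a * (x * y⁻¹)
      · rw [← h]
      · exact Adj.reachable ((mulCayley_adj' S _ _).2 ⟨h, y, hy, Or.inr (by group)⟩)
  refine ⟨fun a b => ?_⟩
  simpa using key a (a⁻¹ * b)

/-- H2. An extension of a hyperbolic group by a finite normal subgroup is hyperbolic. -/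
theorem IsWordHyperbolic.of_finite_ker {G H : Type} [Group G] [Group H] (q : G →* H)
    (hq : Function.Surjective q) [Finite q.ker] (h : IsWordHyperbolic H) :
    IsWordHyperbolic G := by
  classical
  obtain ⟨S, hS, δ, hδ⟩ := h
  have hc := ext_connected hS
  have hfin : (q ⁻¹' (insert 1 (S : Set H))).Finite := by
    refine Set.Finite.preimage' (S.finite_toSet.insert 1) (fun b _ => ?_)
    obtain ⟨a, rfl⟩ := hq b
    have : q ⁻¹' {q a} = (fun k : q.ker => a * (k : G)) '' Set.univ := by
      ext x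
      simp only [Set.mem_preimage, Set.mem_singleton_iff, Set.image_univ, Set.mem_range]
      constructor
      · intro hx
        exact ⟨⟨a⁻¹ * x, by simp [MonoidHom.mem_ker, hx]⟩, by simp⟩
      · rintro ⟨k, rfl⟩
        simp [MonoidHom.mem_ker.1 k.2]
    rw [this]
    exact Set.finite_univ.image _
  have hT : ((hfin.toFinset : Finset G) : Set G) = q ⁻¹' (insert 1 (S : Set H)) := by simp
  have h1 : ∀ a b, (mulCayley (S : Set H)).Adj (q a) (q b) →
      (mulCayley (q ⁻¹' (insert 1 (S : Set H)))).Adj a b := by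
    intro a b hab
    rw [mulCayley_adj] at hab ⊢
    refine ⟨fun e => hab.1 (by rw [e]), ?_⟩
    rcases hab.2 with e | e
    · left; simp [e]
    · right; simp [e]
  have h2 : ∀ a b, q a = q b → a = b ∨ (mulCayley (q ⁻¹' (insert 1 (S : Set H)))).Adj a b := by
    intro a b hab
    by_cases e : a = b
    · exact Or.inl e
    · right
      rw [mulCayley_adj]
      exact ⟨e, Or.inl (by simp [hab])⟩
  have h3 : ∀ a b, (mulCayley (q ⁻¹' (insert 1 (S : Set H)))).Adj a b →
      q a = q b ∨ (mulCayley (S : Set H)).Adj (q a) (q b) := by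
    intro a b hab
    by_cases e : q a = q b
    · exact Or.inl e
    · right
      rw [mulCayley_adj] at hab ⊢
      refine ⟨e, ?_⟩
      simp only [Set.mem_preimage, map_mul, map_inv, Set.mem_insert_iff, inv_mul_eq_one] at hab
      rcases hab.2 with (e' | e') | (e' | e')
      · exact absurd e' e
      · exact Or.inl e'
      · exact absurd e'.symm e
      · exact Or.inr e'
  refine ⟨hfin.toFinset, ?_, max 1 δ, ?_⟩
  · rw [hT, eq_top_iff]
    intro g _
    have hle : q.ker ≤ Subgroup.closure (q ⁻¹' (insert 1 (S : Set H))) := fun k hk =>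
      Subgroup.subset_closure (by simp [MonoidHom.mem_ker.1 hk])
    have hmap : (Subgroup.closure (q ⁻¹' (insert 1 (S : Set H)))).map q = ⊤ := by
      rw [MonoidHom.map_closure, Set.image_preimage_eq _ hq, eq_top_iff, ← hS]
      exact Subgroup.closure_mono (Set.subset_insert _ _)
    rw [← Subgroup.comap_map_eq_self hle, hmap]
    trivial
  · rw [hT]
    intro x y z p p' p'' e1 e2 e3 v hv
    obtain ⟨W1, a1, a2, -⟩ := ext_geo hc hq h1 h2 h3 p e1
    obtain ⟨W2, b1, -, b3⟩ := ext_geo hc hq h1 h2 h3 p' e2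
    obtain ⟨W3, c1, -, c3⟩ := ext_geo hc hq h1 h2 h3 p'' e3
    obtain ⟨w, hw, hd⟩ := hδ _ _ _ W1 W2 W3 a1 b1 c1 (q v) (a2 v hv)
    rcases hw with hw | hw
    · obtain ⟨u, hu, rfl⟩ := b3 w hw
      exact ⟨u, Or.inl hu, (ext_dist hc hq h1 h2 v u).trans (max_le_max le_rfl hd)⟩
    · obtain ⟨u, hu, rfl⟩ := c3 w hw
      exact ⟨u, Or.inr hu, (ext_dist hc hq h1 h2 v u).trans (max_le_max le_rfl hd)⟩

end Vale.Agent.P186
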