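import Mathlib

/-!
A linear homological isoperimetric inequality (in the form of a Stokes bound) gives thin triangles.
-/

namespace Vale.Agent.P186

open SimpleGraph Finset

variable {X : Type} {G : SimpleGraph X}

/-- Sum of a function over the oriented edges of a walk. -/
def wsum (Ω : X → X → ℤ) : ∀ {u v : X}, G.Walk u v → ℤ
  | _, _, Walk.nil => 0
  | u, _, Walk.cons (v := w) _ p => Ω u w + wsum Ω p

theorem wsum_append (Ω : X → X → ℤ) {u v w : X} (p : G.Walk u v) (q : G.Walk v w) :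
    wsum Ω (p.append q) = wsum Ω p + wsum Ω q := by
  induction p with
  | nil => simp [wsum]
  | cons h p ih => simp only [Walk.cons_append, wsum, ih, add_assoc]

/-- The Stokes bound with constant `K`. -/
def Stokes (G : SimpleGraph X) (K : ℕ) : Prop :=
  ∀ f ψ : X → ℤ, (∀ x y, f y - f x ≤ G.dist x y) → (∀ x y, ψ y - ψ x ≤ G.dist x y) →
    ∀ (u : X) (W : G.Walk u u),
      wsum (fun x y => (f y - f x) * (ψ x + ψ y)) W ≤ K * W.length

theorem hyp_wsum_zero (f ψ : X → ℤ) {u v : X} (W : G.Walk u v) (h : ∀ z ∈ W.support, ψ z = 0) :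
    wsum (fun x y => (f y - f x) * (ψ x + ψ y)) W = 0 := by
  induction W with
  | nil => rfl
  | @cons a b c hab p ih =>
    simp only [wsum]
    rw [ih (fun z hz => h z (by simp [hz])), h a (by simp), h b (by simp)]
    simp

theorem hyp_adj_le {x y : X} (h : G.Adj x y) : G.dist x y ≤ 1 := (dist_eq_one_iff_adj.2 h).le

theorem hyp_wsum_geo (hc : G.Connected) (A : X) (ψ : X → ℤ) (h0 : ∀ x, 0 ≤ ψ x)
    (hψ : ∀ x y, ψ y - ψ x ≤ G.dist x y) {u v : X} (W : G.Walk u v)
    (h : G.dist A u + W.length = G.dist A v) :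
    ψ u ^ 2 - ψ v ^ 2 ≤
        wsum (fun x y => ((G.dist A y : ℤ) - (G.dist A x : ℤ)) * (ψ x + ψ y)) W ∧
      0 ≤ wsum (fun x y => ((G.dist A y : ℤ) - (G.dist A x : ℤ)) * (ψ x + ψ y)) W := by
  induction W with
  | nil => simp [wsum]
  | @cons a b c hab p ih =>
    have h1 := hyp_adj_le hab
    have h2 : G.dist A b ≤ G.dist A a + G.dist a b := hc.dist_triangle
    have h3 : G.dist A c ≤ G.dist A b + G.dist b c := hc.dist_triangle
    have h4 := dist_le p
    simp only [Walk.length_cons] at h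
    have h5 : G.dist A b = G.dist A a + 1 := by omega
    obtain ⟨i1, i2⟩ := ih (by omega)
    have h6 := hψ b a
    rw [dist_comm] at h6
    have h7 : ψ a - ψ b ≤ 1 := h6.trans (by exact_mod_cast h1)
    have h8 := h0 a
    have h9 := h0 b
    simp only [wsum]
    have e : ((G.dist A b : ℤ) - (G.dist A a : ℤ)) = 1 := by rw [h5]; push_cast; ring
    rw [e]
    constructor <;> nlinarith

/-- There is a walk of length at most `n` avoiding the open ball of radius `r` around `p`. -/
def Av (G : SimpleGraph X) (p : X) (r : ℕ) (u v : X) (n : ℕ) : Prop :=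
  ∃ W : G.Walk u v, W.length ≤ n ∧ ∀ z ∈ W.support, r ≤ G.dist p z

theorem Av.trans {p u v w : X} {r n m : ℕ} (h : Av G p r u v n) (h' : Av G p r v w m) :
    Av G p r u w (n + m) := by
  obtain ⟨W, h1, h2⟩ := h
  obtain ⟨W', h3, h4⟩ := h'
  refine ⟨W.append W', by simp; omega, fun z hz => ?_⟩
  rcases (Walk.mem_support_append_iff _ _).1 hz with hz | hz
  · exact h2 z hz
  · exact h4 z hz

theorem Av.symm {p u v : X} {r n : ℕ} (h : Av G p r u v n) : Av G p r v u n := by
  obtain ⟨W, h1, h2⟩ := h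
  exact ⟨W.reverse, by simpa using h1, fun z hz => h2 z (by simpa using hz)⟩

theorem Av.mono {p u v : X} {r n m : ℕ} (h : Av G p r u v n) (hm : n ≤ m) : Av G p r u v m := by
  obtain ⟨W, h1, h2⟩ := h
  exact ⟨W, h1.trans hm, h2⟩

theorem Av.geo (hc : G.Connected) {p u v : X} {r : ℕ}
    (h : ∀ z, G.dist u z + G.dist z v = G.dist u v → r ≤ G.dist p z) :
    Av G p r u v (G.dist u v) := by
  obtain ⟨W, hW⟩ := hc.exists_walk_length_eq_dist u v
  refine ⟨W, hW.le, fun z hz => h z ?_⟩
  obtain ⟨q1, q2, rfl⟩ := Walk.mem_support_iff_exists_append.1 hz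
  have h1 := dist_le q1
  have h2 := dist_le q2
  have h3 : G.dist u v ≤ G.dist u z + G.dist z v := hc.dist_triangle
  simp only [Walk.length_append] at hW
  omega

theorem Av.of_fun (hc : G.Connected) {p : X} {r n : ℕ} (η : ℕ → X)
    (hs : ∀ k, k < n → G.dist (η k) (η (k + 1)) ≤ 1) (hr : ∀ k, k ≤ n → r ≤ G.dist p (η k))
    {i j : ℕ} (hij : i ≤ j) (hj : j ≤ n) : Av G p r (η i) (η j) (j - i) := by
  induction j, hij using Nat.le_induction with
  | base => exact ⟨Walk.nil, by simp, fun z hz => by simp at hz; rw [hz]; exact hr i hj⟩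
  | succ j hij ih =>
    have h1 : Av G p r (η j) (η (j + 1)) (G.dist (η j) (η (j + 1))) := by
      refine Av.geo hc (fun z hz => ?_)
      have := hs j (by omega)
      rcases Nat.eq_zero_or_pos (G.dist (η j) z) with h0 | h0
      · rw [← hc.dist_eq_zero_iff.1 h0]; exact hr j (by omega)
      · have h2 : G.dist z (η (j + 1)) = 0 := by omega
        rw [hc.dist_eq_zero_iff.1 h2]; exact hr _ hj
    have := hs j (by omega)
    exact ((ih (by omega)).trans h1).mono (by omega)

theorem hyp_fun_le (hc : G.Connected) {n : ℕ} (η : ℕ → X)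
    (hs : ∀ k, k < n → G.dist (η k) (η (k + 1)) ≤ 1) {i j : ℕ} (hij : i ≤ j) (hj : j ≤ n) :
    G.dist (η i) (η j) ≤ j - i := by
  obtain ⟨W, h1, -⟩ := Av.of_fun hc (p := η 0) (r := 0) η hs (fun _ _ => Nat.zero_le _) hij hj
  exact (dist_le W).trans h1

/-- Quadratic divergence. -/
theorem hyp_div (hc : G.Connected) {K : ℕ} (hK : Stokes G K) {A p B : X} {r n : ℕ}
    (hp : G.dist A p + G.dist p B = G.dist A B) (h : Av G p r B A n) :
    r ^ 2 ≤ K * (G.dist A B + n) := by
  obtain ⟨η, h1, h2⟩ := h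
  obtain ⟨g1, e1⟩ := hc.exists_walk_length_eq_dist A p
  obtain ⟨g2, e2⟩ := hc.exists_walk_length_eq_dist p B
  let ψ : X → ℤ := fun x => ((r - G.dist p x : ℕ) : ℤ)
  have hψ : ∀ x y, ψ y - ψ x ≤ G.dist x y := by
    intro x y
    have h3 : G.dist p x ≤ G.dist p y + G.dist y x := hc.dist_triangle
    rw [dist_comm (u := y)] at h3
    simp only [ψ]
    omega
  have hf : ∀ x y, ((G.dist A y : ℤ) - (G.dist A x : ℤ)) ≤ G.dist x y := by
    intro x y
    have h3 : G.dist A y ≤ G.dist A x + G.dist x y := hc.dist_triangle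
    omega
  have h0 : ∀ x, 0 ≤ ψ x := fun x => Int.natCast_nonneg _
  have hz : ∀ z ∈ η.support, ψ z = 0 := by
    intro z hz
    have := h2 z hz
    simp only [ψ]
    omega
  have key := hK (fun x => G.dist A x) ψ hf hψ A (g1.append (g2.append η))
  rw [wsum_append, wsum_append, hyp_wsum_zero (fun x => (G.dist A x : ℤ)) ψ η hz] at key
  have a1 := (hyp_wsum_geo hc A ψ h0 hψ g1 (by simp [e1])).2
  have a2 := (hyp_wsum_geo hc A ψ h0 hψ g2 (by rw [e2, hp])).1
  have a3 : ψ p = r := by simp [ψ]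
  have a4 : ψ B = 0 := hz B η.start_mem_support
  rw [a3, a4] at a2
  simp only [Walk.length_append, e1, e2] at key
  have a5 : ((r ^ 2 : ℕ) : ℤ) ≤ ((K * (G.dist A p + (G.dist p B + η.length)) : ℕ) : ℤ) := by
    push_cast at key ⊢
    linarith
  have a6 : r ^ 2 ≤ K * (G.dist A p + (G.dist p B + η.length)) := by exact_mod_cast a5
  exact a6.trans (Nat.mul_le_mul_left _ (by omega))

/-- A geodesic in coordinates. -/
def Geo (G : SimpleGraph X) (c : ℕ → X) (L : ℕ) : Prop :=
  ∀ i j, i ≤ j → j ≤ L → G.dist (c i) (c j) = j - i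

theorem hyp_geo_getVert (hc : G.Connected) {x y : X} (p : G.Walk x y)
    (hp : p.length = G.dist x y) : Geo G p.getVert p.length := by
  have hs : ∀ k, k < p.length → G.dist (p.getVert k) (p.getVert (k + 1)) ≤ 1 :=
    fun k hk => hyp_adj_le (p.adj_getVert_succ hk)
  intro i j hij hj
  have h1 := hyp_fun_le hc p.getVert hs hij hj
  have h2 := hyp_fun_le hc p.getVert hs (Nat.zero_le i) (hij.trans hj)
  have h3 := hyp_fun_le hc p.getVert hs hj le_rfl
  rw [p.getVert_zero] at h2
  rw [p.getVert_length] at h3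
  have h4 : G.dist x y ≤ G.dist x (p.getVert i) + G.dist (p.getVert i) y := hc.dist_triangle
  have h5 : G.dist (p.getVert i) y ≤
    G.dist (p.getVert i) (p.getVert j) + G.dist (p.getVert j) y := hc.dist_triangle
  omega

theorem hyp_morse1 (hc : G.Connected) {K : ℕ} (hK : Stokes G K) {c η : ℕ → X} {L n : ℕ}
    (hg : Geo G c L) (hs : ∀ k, k < n → G.dist (η k) (η (k + 1)) ≤ 1)
    (hq : ∀ i j, i ≤ j → j ≤ n → j - i ≤ 3 * G.dist (η i) (η j))
    (e0 : η 0 = c 0) (e1 : η n = c L) :
    ∀ s, s ≤ L → ∃ k, k ≤ n ∧ G.dist (c s) (η k) ≤ 24 * K := by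
  have hmin : ∀ s, ∃ k, k ≤ n ∧ ∀ k', k' ≤ n → G.dist (c s) (η k) ≤ G.dist (c s) (η k') := by
    intro s
    obtain ⟨k, hk, h⟩ := exists_min_image (range (n + 1)) (fun k => G.dist (c s) (η k)) (by simp)
    exact ⟨k, by simpa [Nat.lt_succ_iff] using hk,
      fun k' hk' => h k' (by simpa [Nat.lt_succ_iff] using hk')⟩
  choose κ hκ1 hκ2 using hmin
  obtain ⟨t, ht, hmax⟩ :=
    exists_max_image (range (L + 1)) (fun s => G.dist (c s) (η (κ s))) (by simp)
  have ht' : t ≤ L := by simpa [Nat.lt_succ_iff] using ht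
  obtain ⟨D, hD⟩ : ∃ D, D = G.dist (c t) (η (κ t)) := ⟨_, rfl⟩
  have hm : ∀ s, s ≤ L → G.dist (c s) (η (κ s)) ≤ D := fun s hs' => by
    rw [hD]; exact hmax s (by simpa [Nat.lt_succ_iff] using hs')
  have hr : ∀ k, k ≤ n → D ≤ G.dist (c t) (η k) := fun k hk => by rw [hD]; exact hκ2 t k hk
  suffices hfin : D ≤ 24 * K from fun s hs' => ⟨κ s, hκ1 s, (hm s hs').trans hfin⟩
  have hside : ∀ s, s ≤ L → (G.dist (c t) (c s) = 2 * D ∨ ∃ k, k ≤ n ∧ c s = η k) →
      Av G (c t) D (c s) (η (κ s)) D := by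
    intro s hs' h
    refine (Av.geo hc (fun z hz => ?_)).mono (hm s hs')
    have h1 := hm s hs'
    rcases h with h | ⟨k, hk, h⟩
    · have h2 : G.dist (c t) (c s) ≤ G.dist (c t) z + G.dist z (c s) := hc.dist_triangle
      rw [dist_comm (u := z)] at h2
      omega
    · have h2 := hκ2 s k hk
      rw [← h, dist_self] at h2
      have h3 : G.dist (c s) z = 0 := by omega
      rw [← hc.dist_eq_zero_iff.1 h3, h]
      exact hr k hk
  obtain ⟨t1, ht1⟩ : ∃ t1, t1 = t - 2 * D := ⟨_, rfl⟩
  obtain ⟨t2, ht2⟩ : ∃ t2, t2 = min (t + 2 * D) L := ⟨_, rfl⟩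
  have d1 := hg t1 t (by omega) ht'
  have d2 := hg t t2 (by omega) (by omega)
  have d3 := hg t1 t2 (by omega) (by omega)
  have s1 := hside t1 (by omega) (by
    rcases le_total (2 * D) t with h | h
    · left; rw [dist_comm]; omega
    · right; exact ⟨0, Nat.zero_le _, by rw [e0]; congr 1; omega⟩)
  have s2 := hside t2 (by omega) (by
    rcases le_total (t + 2 * D) L with h | h
    · left; omega
    · right; exact ⟨n, le_rfl, by rw [e1]; congr 1; omega⟩)
  have m1 := hm t1 (by omega)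
  have m2 := hm t2 (by omega)
  have hd : G.dist (η (κ t1)) (η (κ t2)) ≤ 6 * D := by
    have a1 : G.dist (η (κ t1)) (η (κ t2)) ≤
      G.dist (η (κ t1)) (c t1) + G.dist (c t1) (η (κ t2)) := hc.dist_triangle
    have a2 : G.dist (c t1) (η (κ t2)) ≤
      G.dist (c t1) (c t2) + G.dist (c t2) (η (κ t2)) := hc.dist_triangle
    rw [dist_comm (u := η (κ t1)) (v := c t1)] at a1
    omega
  have s3 : Av G (c t) D (η (κ t2)) (η (κ t1)) (18 * D) := by
    rcases le_total (κ t1) (κ t2) with h | h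
    · have := hq _ _ h (hκ1 t2)
      exact (Av.of_fun hc η hs hr h (hκ1 t2)).symm.mono (by omega)
    · have := hq _ _ h (hκ1 t1)
      rw [dist_comm] at this
      exact (Av.of_fun hc η hs hr h (hκ1 t1)).mono (by omega)
  have key := hyp_div hc hK (A := c t1) (p := c t) (B := c t2) (by omega)
    ((s2.trans s3).trans s1.symm)
  have key2 : D * D ≤ (24 * K) * D := by
    calc D * D = D ^ 2 := by ring
      _ ≤ _ := key
      _ ≤ K * (24 * D) := Nat.mul_le_mul_left _ (by omega)
      _ = _ := by ring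
  rcases Nat.eq_zero_or_pos D with h | h
  · omega
  · exact Nat.le_of_mul_le_mul_right key2 h

theorem hyp_morse2 (hc : G.Connected) {K : ℕ} (hK : Stokes G K) {c η : ℕ → X} {L n : ℕ}
    (hg : Geo G c L) (hs : ∀ k, k < n → G.dist (η k) (η (k + 1)) ≤ 1)
    (hq : ∀ i j, i ≤ j → j ≤ n → j - i ≤ 3 * G.dist (η i) (η j))
    (e0 : η 0 = c 0) (e1 : η n = c L) :
    ∀ k, k ≤ n → ∃ s, s ≤ L ∧ G.dist (η k) (c s) ≤ 168 * K + 3 := by
  classical
  have h1 := hyp_morse1 hc hK hg hs hq e0 e1
  intro k hk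
  obtain ⟨s, hs1, hmax⟩ := exists_max_image
    ((range (L + 1)).filter (fun s => ∃ i, i ≤ k ∧ G.dist (c s) (η i) ≤ 24 * K)) id
    ⟨0, by simp only [mem_filter, mem_range]; exact ⟨by omega, 0, Nat.zero_le _, by simp [e0]⟩⟩
  simp only [mem_filter, mem_range, id] at hs1 hmax
  obtain ⟨hsL, i, hi, hd⟩ := hs1
  refine ⟨s, by omega, ?_⟩
  have a1 : G.dist (η k) (c s) ≤ G.dist (η k) (η i) + G.dist (η i) (c s) := hc.dist_triangle
  have a2 := hyp_fun_le hc η hs hi hk
  rw [dist_comm (u := η k) (v := η i), dist_comm (u := η i) (v := c s)] at a1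
  rcases Nat.lt_or_ge s L with h | h
  · obtain ⟨j, hj, hd'⟩ := h1 (s + 1) h
    have hjk : k < j := by
      by_contra hcon
      have := hmax (s + 1) ⟨by omega, j, by omega, hd'⟩
      omega
    have b1 := hq i j (by omega) hj
    have b2 : G.dist (η i) (η j) ≤ G.dist (η i) (c s) + G.dist (c s) (η j) := hc.dist_triangle
    have b3 : G.dist (c s) (η j) ≤ G.dist (c s) (c (s + 1)) + G.dist (c (s + 1)) (η j) :=
      hc.dist_triangle
    have b4 := hg s (s + 1) (by omega) h
    rw [dist_comm (u := η i) (v := c s)] at b2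
    omega
  · have hsL' : s = L := by omega
    have b1 := hq i n (by omega) le_rfl
    rw [e1, ← hsL', dist_comm] at b1
    omega

theorem hyp_half (hc : G.Connected) {K : ℕ} (hK : Stokes G K) {c e : ℕ → X} {L M : ℕ}
    (hg : Geo G c L) (he : Geo G e M) (hend : e M = c L)
    (hnear : ∀ s, s ≤ L → G.dist (e 0) (c 0) ≤ G.dist (e 0) (c s)) :
    ∀ s, s ≤ L → ∃ k, k ≤ M ∧ G.dist (c s) (e k) ≤ 168 * K + 3 := by
  obtain ⟨W, hW⟩ := hc.exists_walk_length_eq_dist (e 0) (c 0)
  have hgW := hyp_geo_getVert hc W hW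
  obtain ⟨a, ha⟩ : ∃ a, a = W.length := ⟨_, rfl⟩
  obtain ⟨g, hgdef⟩ : ∃ g, g = W.getVert := ⟨_, rfl⟩
  have g0 : g 0 = e 0 := by rw [hgdef]; exact W.getVert_zero
  have g1 : g a = c 0 := by rw [hgdef, ha]; exact W.getVert_length
  rw [← ha, ← hgdef] at hgW
  let η : ℕ → X := fun k => if k ≤ a then g k else c (k - a)
  have η1 : ∀ k, k ≤ a → η k = g k := fun k hk => if_pos hk
  have η2 : ∀ s, η (a + s) = c s := by
    intro s
    rcases Nat.eq_zero_or_pos s with rfl | h
    · rw [η1 _ (by omega)]; exact g1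
    · simp only [η]
      rw [if_neg (by omega)]
      congr 1; omega
  have hq : ∀ i j, i ≤ j → j ≤ a + L → j - i ≤ 3 * G.dist (η i) (η j) := by
    intro i j hij hj
    rcases le_total j a with h | h
    · rw [η1 i (by omega), η1 j h, hgW i j hij h]; omega
    · obtain ⟨s, rfl⟩ := Nat.exists_eq_add_of_le h
      rcases le_total i a with h' | h'
      · rw [η1 i h', η2]
        have b1 := hgW 0 i (Nat.zero_le _) h'
        have b2 := hgW i a h' le_rfl
        have b3 := hg 0 s (Nat.zero_le _) (by omega)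
        have b4 := hnear s (by omega)
        rw [g0] at b1
        rw [g1] at b2
        have b5 : G.dist (e 0) (c s) ≤ G.dist (e 0) (g i) + G.dist (g i) (c s) := hc.dist_triangle
        have b6 : G.dist (c 0) (c s) ≤ G.dist (c 0) (g i) + G.dist (g i) (c s) := hc.dist_triangle
        rw [dist_comm (u := c 0) (v := g i)] at b6
        omega
      · obtain ⟨s', rfl⟩ := Nat.exists_eq_add_of_le h'
        rw [η2, η2, hg s' s (by omega) (by omega)]; omega
  have hs : ∀ k, k < a + L → G.dist (η k) (η (k + 1)) ≤ 1 := by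
    intro k hk
    rcases Nat.lt_or_ge k a with h | h
    · rw [η1 k h.le, η1 (k + 1) h, hgW k (k + 1) (by omega) h]; omega
    · obtain ⟨s, rfl⟩ := Nat.exists_eq_add_of_le h
      rw [add_assoc, η2, η2, hg s (s + 1) (by omega) (by omega)]; omega
  intro s hs'
  have := hyp_morse2 hc hK he hs hq (by rw [η1 0 (Nat.zero_le _), g0]) (by rw [η2, hend])
    (a + s) (by omega)
  rwa [η2] at this

/-- The Stokes bound gives thin triangles. -/
theorem hyp_thin (hc : G.Connected) {K : ℕ} (hK : Stokes G K) (x y z : X) (p : G.Walk x y)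
    (q : G.Walk y z) (r : G.Walk z x) (hp : p.length = G.dist x y) (hq : q.length = G.dist y z)
    (hr : r.length = G.dist z x) :
    ∀ v ∈ p.support, ∃ w, (w ∈ q.support ∨ w ∈ r.support) ∧ G.dist v w ≤ 168 * K + 3 := by
  have gp := hyp_geo_getVert hc p hp
  have gq := hyp_geo_getVert hc q hq
  have gr := hyp_geo_getVert hc r hr
  obtain ⟨t, ht, hmin⟩ :=
    exists_min_image (range (p.length + 1)) (fun s => G.dist z (p.getVert s)) (by simp)
  simp only [mem_range, Nat.lt_succ_iff] at ht hmin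
  intro v hv
  obtain ⟨s, rfl, hs⟩ := Walk.mem_support_iff_exists_getVert.1 hv
  rcases le_total s t with h | h
  · obtain ⟨k, -, hk⟩ := hyp_half hc hK (c := fun i => p.getVert (t - i)) (e := r.getVert)
      (L := t) (M := r.length)
      (fun i j hij hj => by
        simp only
        rw [dist_comm, gp (t - j) (t - i) (by omega) (by omega)]; omega)
      gr (by simp) (fun i _ => by simpa using hmin (t - i) (by omega)) (t - s) (by omega)
    simp only [Nat.sub_sub_self h] at hk
    exact ⟨_, Or.inr (r.getVert_mem_support k), hk⟩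
  · obtain ⟨k, -, hk⟩ := hyp_half hc hK (c := fun i => p.getVert (t + i))
      (e := fun i => q.getVert (q.length - i)) (L := p.length - t) (M := q.length)
      (fun i j hij hj => by
        simp only
        rw [gp (t + i) (t + j) (by omega) (by omega)]; omega)
      (fun i j hij hj => by
        simp only
        rw [dist_comm, gq (q.length - j) (q.length - i) (by omega) (by omega)]; omega)
      (by simp [Nat.add_sub_cancel' ht])
      (fun i hi => by simpa using hmin (t + i) (by omega)) (s - t) (by omega)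
    simp only [Nat.add_sub_cancel' h] at hk
    exact ⟨_, Or.inl (q.getVert_mem_support _), hk⟩

end Vale.Agent.P186
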